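import Vale.Agent.P298.Lift

namespace Vale.Agent.Results.P298.Cyclic

open Vale.Agent.P298

theorem result (G : P → ℂ) (k : ℕ) (hk : 1 ≤ k) (h : RelTrivial G) :
    RightTrivial fun p => G (p.1 ^ k, p.2) := by
  obtain ⟨Φ, hΦ, -⟩ := lift h (k := k) (by omega)
  exact ⟨Φ, hΦ⟩

end Vale.Agent.Results.P298.Cyclic
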